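import Vale.Agent.Lib.P171.Bridge
import Vale.Agent.Lib.P171.Limit

open Filter Topology

namespace Vale.Agent.Results.P171.A_main

open Vale.Agent.Lib.P171 Vale.Agent.Lib.P171.Defs

/-- There is a bounded Borel stable tempered radial pair potential on three-space whose
pressure at inverse temperature one is not differentiable in the activity. -/
theorem result :
    ∃ φ : ℝ → ℝ, Measurable φ ∧ (∃ M : ℝ, ∀ r, |φ r| ≤ M) ∧ IsStable φ ∧ IsTempered φ ∧
      (∀ L z : ℝ, 0 < z → Summable fun N : ℕ => z ^ N * canonical φ 1 L N) ∧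
      ∃ Pi : ℝ → ℝ,
        (∀ z : ℝ, 0 < z →
          Tendsto (fun L : ℝ => Real.log (grand φ 1 L z) / L ^ 3) atTop (𝓝 (Pi z))) ∧
        ∃ z₀ : ℝ, 0 < z₀ ∧ ¬ DifferentiableAt ℝ Pi z₀ := by
  have hadm := adm_PInf
  obtain ⟨m, hm⟩ := PInf_kink
  refine ⟨pot A0 chiInf, hadm.meas, ⟨A0 + 8800 * (1 / v1), fun r => ?_⟩, ?_, ?_, ?_,
    fun z => PInf (Real.log z), fun z hz => tendsto_grand hadm hz, Real.exp m, Real.exp_pos m, ?_⟩
  · have h1 := chiInf_nonneg r
    have h2 := chiInf_le r
    have hA : (0 : ℝ) < A0 := by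
      rw [A0_eq]
      norm_num
    have hv := v1_pos
    simp only [pot]
    rw [abs_le]
    split_ifs <;> constructor <;> linarith [show (0 : ℝ) ≤ 8800 * (1 / v1) by positivity]
  · refine ⟨A0 / 2, fun N x _ => ?_⟩
    rw [energy_eq_pairE]
    exact pot_stable attr_chiInf (by rw [A0_eq]; norm_num) (by rw [A0_eq]; norm_num) x
  · refine ⟨1, 1, 1, one_pos, one_pos, one_pos, fun r hr => ?_⟩
    have h1 := hadm.attr r hr
    have h2 : 0 ≤ (1 : ℝ) * r ^ (-3 - 1 : ℝ) := by
      have : (0 : ℝ) < r := by linarith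
      positivity
    linarith
  · intro L z hz
    exact summable_terms hadm L z hz
  · exact not_diff_comp (by norm_num) hm
end Vale.Agent.Results.P171.A_main
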