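import Vale.Agent.Lib.P171b.Final

open Filter Topology
open scoped ENNReal

namespace Vale.Agent.Results.P171.B_kink

open Vale.Agent.Lib.P171b in
theorem result : ∃ φ : ℝ → ℝ, Measurable φ ∧ IsLocallyBoundedOnPos φ ∧ IsStable φ ∧ IsTempered φ ∧
    ∃ Pi : ℝ → ℝ,
      (∀ z L : ℝ, 0 < z → GrandZ φ 1 L z ≠ ⊤) ∧
      (∀ z : ℝ, 0 < z → Tendsto (fun L : ℝ => (L ^ 3)⁻¹ * Real.log (GrandZ φ 1 L z).toReal) atTop
        (𝓝 (Pi z))) ∧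
      ∃ z₀ : ℝ, 0 < z₀ ∧ ¬ DifferentiableAt ℝ Pi z₀ :=
  main_theorem

end Vale.Agent.Results.P171.B_kink
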